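import Mathlib
import Vale.Agent.Lib.P243.Defs
import Vale.Agent.Lib.P243.Soft.Defs

/-!
P243, edge-parallel cylinders of a tetrahedron.  Definitions.
`tet b` is the tetrahedron with vertices `b 0 .. b 3` (all barycentric coordinates nonnegative),
`oct b` the octahedron spanned by the midpoints of its edges (all coordinates in `[0, 1/2]`),
`rho b = 1 + 1_{oct b}` the weight.
-/

namespace Vale.Agent.Lib.P243.Edge

open MeasureTheory Set Vale.Agent.Lib.P243

/-- The tetrahedron. -/
def tet (b : AffineBasis (Fin 4) ℝ Space) : Set Space := {x | ∀ i, 0 ≤ b.coord i x}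

/-- The octahedron of edge midpoints. -/
def oct (b : AffineBasis (Fin 4) ℝ Space) : Set Space :=
  {x | ∀ i, 0 ≤ b.coord i x ∧ b.coord i x ≤ 1 / 2}

/-- The weight `1 + 1_oct`. -/
noncomputable def rho (b : AffineBasis (Fin 4) ℝ Space) : Space → ENNReal :=
  fun x => 1 + (oct b).indicator (fun _ => (1 : ENNReal)) x

end Vale.Agent.Lib.P243.Edge
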