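import Mathlib
import Vale.Agent.Lib.P243.Edge.Defs

/-!
P243, edge-parallel cylinders of a tetrahedron: the integral of the weight `1_T + 1_Oct` along a
line parallel to the edge `b j - b k`, with speed `c`, is at most `1 / c`.
-/

namespace Vale.Agent.Lib.P243.Edge

open MeasureTheory Set Vale.Agent.Lib.P243 Vale.Agent.Lib.P243.Soft

theorem lineInt_le (b : AffineBasis (Fin 4) ℝ Space) (j k : Fin 4) (hjk : j ≠ k) {c : ℝ}
    (hc : 0 < c) (p : Space) :
    lineInt (tet b) (rho b) p (c • (b j - b k)) ≤ ENNReal.ofReal (1 / c) := by
  classical
  set v : Space := c • (b j - b k) with hv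
  have hcoord : ∀ (i : Fin 4) (t : ℝ), b.coord i (p + t • v) =
      b.coord i p + t * c * (b.coord i (b j) - b.coord i (b k)) := by
    intro i t
    have h1 : p + t • v = (t • v) +ᵥ p := by rw [vadd_eq_add, add_comm]
    have h2 : (b.coord i).linear (b j - b k) = b.coord i (b j) - b.coord i (b k) := by
      have := (b.coord i).linearMap_vsub (b j) (b k)
      simpa [vsub_eq_sub] using this
    rw [h1, AffineMap.map_vadd, hv, map_smul, map_smul, h2]
    simp only [vadd_eq_add, smul_eq_mul]
    ring
  have hj : ∀ t : ℝ, b.coord j (p + t • v) = b.coord j p + t * c := by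
    intro t
    rw [hcoord, b.coord_apply, b.coord_apply]
    simp [hjk]
  have hk : ∀ t : ℝ, b.coord k (p + t • v) = b.coord k p - t * c := by
    intro t
    rw [hcoord, b.coord_apply, b.coord_apply]
    simp [hjk.symm]
    ring
  unfold lineInt
  by_cases hex : ∃ t : ℝ, p + t • v ∈ tet b
  · obtain ⟨t0, ht0⟩ := hex
    set α := b.coord j p with hα
    set β := b.coord k p with hβ
    have hαβ0 : 0 ≤ α + β := by
      have h1 := ht0 j
      have h2 := ht0 k
      rw [hj] at h1
      rw [hk] at h2
      linarith
    have hαβ1 : α + β ≤ 1 := by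
      have hsum := b.sum_coord_apply_eq_one (p + t0 • v)
      rw [← Finset.add_sum_erase Finset.univ _ (Finset.mem_univ j),
        ← Finset.add_sum_erase (Finset.univ.erase j) _
          (Finset.mem_erase.mpr ⟨hjk.symm, Finset.mem_univ k⟩), hj, hk] at hsum
      have hnn : 0 ≤ ∑ i ∈ (Finset.univ.erase j).erase k, b.coord i (p + t0 • v) :=
        Finset.sum_nonneg (fun i _ => ht0 i)
      linarith
    have hpt : ∀ t : ℝ, (tet b).indicator (rho b) (p + t • v) ≤
        (Icc (-α / c) (β / c)).indicator (fun _ => (1 : ENNReal)) t +
          (Icc ((β - 1 / 2) / c) ((1 / 2 - α) / c)).indicator (fun _ => (1 : ENNReal)) t := by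
      intro t
      by_cases ht : p + t • v ∈ tet b
      · rw [indicator_of_mem ht]
        have hA : t ∈ Icc (-α / c) (β / c) := by
          have h1 := ht j
          have h2 := ht k
          rw [hj] at h1
          rw [hk] at h2
          constructor
          · rw [div_le_iff₀ hc]
            linarith
          · rw [le_div_iff₀ hc]
            linarith
        rw [indicator_of_mem hA]
        unfold rho
        refine add_le_add le_rfl ?_
        by_cases ho : p + t • v ∈ oct b
        · have hA' : t ∈ Icc ((β - 1 / 2) / c) ((1 / 2 - α) / c) := by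
            have h1 := (ho j).2
            have h2 := (ho k).2
            rw [hj] at h1
            rw [hk] at h2
            constructor
            · rw [div_le_iff₀ hc]
              linarith
            · rw [le_div_iff₀ hc]
              linarith
          rw [indicator_of_mem ho, indicator_of_mem hA']
        · rw [indicator_of_notMem ho]
          exact zero_le
      · rw [indicator_of_notMem ht]
        exact zero_le
    calc ∫⁻ t : ℝ, (tet b).indicator (rho b) (p + t • v)
        ≤ ∫⁻ t : ℝ, ((Icc (-α / c) (β / c)).indicator (fun _ => (1 : ENNReal)) t +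
          (Icc ((β - 1 / 2) / c) ((1 / 2 - α) / c)).indicator (fun _ => (1 : ENNReal)) t) :=
          lintegral_mono hpt
      _ = (∫⁻ t : ℝ, (Icc (-α / c) (β / c)).indicator (fun _ => (1 : ENNReal)) t) +
          (∫⁻ t : ℝ, (Icc ((β - 1 / 2) / c) ((1 / 2 - α) / c)).indicator
            (fun _ => (1 : ENNReal)) t) :=
          lintegral_add_left (measurable_const.indicator measurableSet_Icc) _
      _ = volume (Icc (-α / c) (β / c)) + volume (Icc ((β - 1 / 2) / c) ((1 / 2 - α) / c)) := by
          rw [lintegral_indicator_const measurableSet_Icc, lintegral_indicator_const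
            measurableSet_Icc, one_mul, one_mul]
      _ = ENNReal.ofReal ((α + β) / c) + ENNReal.ofReal ((1 - α - β) / c) := by
          rw [Real.volume_Icc, Real.volume_Icc]
          congr 2 <;> ring
      _ = ENNReal.ofReal (1 / c) := by
          rw [← ENNReal.ofReal_add (div_nonneg hαβ0 hc.le) (div_nonneg (by linarith) hc.le)]
          congr 1
          ring
  · push Not at hex
    have h0 : ∀ t : ℝ, (tet b).indicator (rho b) (p + t • v) = 0 :=
      fun t => indicator_of_notMem (hex t) _
    simp [h0]

end Vale.Agent.Lib.P243.Edge
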