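import Mathlib
import Vale.Agent.Lib.P243.Edge.Defs

/-!
P243, edge-parallel cylinders of a tetrahedron: the total mass of the weight `rho b` on `tet b`
is at least `3/2` of the volume of the tetrahedron.
-/

namespace Vale.Agent.Lib.P243.Edge

open MeasureTheory Set Vale.Agent.Lib.P243

theorem continuous_coord (b : AffineBasis (Fin 4) ℝ Space) (i : Fin 4) :
    Continuous (b.coord i) :=
  AffineMap.continuous_of_finiteDimensional _

theorem isClosed_tet (b : AffineBasis (Fin 4) ℝ Space) : IsClosed (tet b) := by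
  have : tet b = ⋂ i, {x | 0 ≤ b.coord i x} := by
    ext x; simp [tet]
  rw [this]
  exact isClosed_iInter fun i => isClosed_le continuous_const (continuous_coord b i)

theorem isClosed_oct (b : AffineBasis (Fin 4) ℝ Space) : IsClosed (oct b) := by
  have : oct b = ⋂ i, ({x | 0 ≤ b.coord i x} ∩ {x | b.coord i x ≤ 1 / 2}) := by
    ext x; simp [oct]
  rw [this]
  exact isClosed_iInter fun i =>
    (isClosed_le continuous_const (continuous_coord b i)).inter
      (isClosed_le (continuous_coord b i) continuous_const)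

theorem measurableSet_tet (b : AffineBasis (Fin 4) ℝ Space) : MeasurableSet (tet b) :=
  (isClosed_tet b).measurableSet

theorem measurableSet_oct (b : AffineBasis (Fin 4) ℝ Space) : MeasurableSet (oct b) :=
  (isClosed_oct b).measurableSet

theorem oct_subset_tet (b : AffineBasis (Fin 4) ℝ Space) : oct b ⊆ tet b :=
  fun _ hx i => (hx i).1

theorem tet_eq_convexHull (b : AffineBasis (Fin 4) ℝ Space) :
    tet b = convexHull ℝ (range b) := by
  rw [AffineBasis.convexHull_eq_nonneg_coord]
  rfl

theorem volume_tet_ne_top (b : AffineBasis (Fin 4) ℝ Space) : volume (tet b) ≠ ⊤ := by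
  rw [tet_eq_convexHull]
  exact ((Set.finite_range b).isCompact_convexHull (𝕜 := ℝ)).measure_lt_top.ne

theorem measurable_rho (b : AffineBasis (Fin 4) ℝ Space) : Measurable (rho b) := by
  unfold rho
  exact measurable_const.add
    ((measurable_const (a := (1 : ENNReal))).indicator (measurableSet_oct b))

theorem corner_subset (b : AffineBasis (Fin 4) ℝ Space) (i : Fin 4) :
    {x ∈ tet b | 1 / 2 ≤ b.coord i x} ⊆ AffineMap.homothety (b i) (1 / 2 : ℝ) '' tet b := by
  rintro x ⟨hx, hi⟩
  refine ⟨AffineMap.homothety (b i) (2 : ℝ) x, ?_, ?_⟩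
  · intro l
    have h1 : b.coord l (AffineMap.homothety (b i) (2 : ℝ) x)
        = 2 * b.coord l x - b.coord l (b i) := by
      rw [AffineMap.homothety_eq_lineMap, AffineMap.apply_lineMap, AffineMap.lineMap_apply]
      simp only [vsub_eq_sub, smul_eq_mul, vadd_eq_add]
      ring
    rw [h1]
    by_cases hl : l = i
    · subst hl
      rw [AffineBasis.coord_apply_eq]
      linarith
    · rw [AffineBasis.coord_apply_ne _ hl]
      have := hx l
      linarith
  · rw [← AffineMap.homothety_mul_apply]
    norm_num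

theorem tet_subset (b : AffineBasis (Fin 4) ℝ Space) :
    tet b ⊆ oct b ∪ ⋃ i, AffineMap.homothety (b i) (1 / 2 : ℝ) '' tet b := by
  intro x hx
  by_cases h : ∀ i, b.coord i x ≤ 1 / 2
  · exact Or.inl fun i => ⟨hx i, h i⟩
  · push Not at h
    obtain ⟨i, hi⟩ := h
    exact Or.inr (mem_iUnion.2 ⟨i, corner_subset b i ⟨hx, hi.le⟩⟩)

theorem volume_corner (b : AffineBasis (Fin 4) ℝ Space) (i : Fin 4) :
    volume (AffineMap.homothety (b i) (1 / 2 : ℝ) '' tet b)
      = ENNReal.ofReal (1 / 8) * volume (tet b) := by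
  rw [Measure.addHaar_image_homothety]
  congr 2
  rw [finrank_euclideanSpace_fin]
  norm_num [abs_of_pos]

theorem volume_oct_ge (b : AffineBasis (Fin 4) ℝ Space) :
    ENNReal.ofReal (1 / 2) * volume (tet b) ≤ volume (oct b) := by
  have h1 : volume (tet b) ≤ volume (oct b)
      + ∑ i : Fin 4, volume (AffineMap.homothety (b i) (1 / 2 : ℝ) '' tet b) := by
    refine (measure_mono (tet_subset b)).trans ((measure_union_le _ _).trans ?_)
    gcongr
    refine (measure_iUnion_le _).trans ?_
    rw [tsum_fintype]
  simp only [volume_corner, Finset.sum_const, Finset.card_univ, Fintype.card_fin,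
    nsmul_eq_mul] at h1
  have hT := volume_tet_ne_top b
  have hO : volume (oct b) ≠ ⊤ := ne_top_of_le_ne_top hT (measure_mono (oct_subset_tet b))
  lift volume (tet b) to NNReal using hT with t
  lift volume (oct b) to NNReal using hO with o
  have e8 : ENNReal.ofReal (1 / 8) = ((1 / 8 : NNReal) : ENNReal) := by
    rw [ENNReal.ofReal]; congr 1; ext; simp
  have e2 : ENNReal.ofReal (1 / 2) = ((1 / 2 : NNReal) : ENNReal) := by
    rw [ENNReal.ofReal]; congr 1; ext; simp
  rw [e8] at h1
  rw [e2]
  have h3 : t ≤ o + 4 * (1 / 8 * t) := by exact_mod_cast h1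
  have h4 : (1 / 2 : NNReal) * t ≤ o := by
    have h5 : (t : ℝ) ≤ o + 4 * (1 / 8 * t) := by exact_mod_cast h3
    have h6 : (1 / 2 : ℝ) * t ≤ o := by linarith
    exact_mod_cast h6
  exact_mod_cast h4

theorem lintegral_rho (b : AffineBasis (Fin 4) ℝ Space) :
    ∫⁻ x in tet b, rho b x = volume (tet b) + volume (oct b) := by
  unfold rho
  rw [lintegral_add_left measurable_const, lintegral_indicator (measurableSet_oct b)]
  simp only [lintegral_const, one_mul, Measure.restrict_apply MeasurableSet.univ, univ_inter]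
  rw [Measure.restrict_apply (measurableSet_oct b), inter_eq_left.2 (oct_subset_tet b)]

theorem mass_ge (b : AffineBasis (Fin 4) ℝ Space) :
    ENNReal.ofReal (1 + 1 / 2) * volume (tet b) ≤ ∫⁻ x in tet b, rho b x := by
  rw [lintegral_rho, ENNReal.ofReal_add (by norm_num) (by norm_num), add_mul,
    ENNReal.ofReal_one, one_mul]
  gcongr
  exact volume_oct_ge b

end Vale.Agent.Lib.P243.Edge
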