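import Mathlib
import Vale.Agent.Lib.P243.Bridge
import Vale.Agent.Lib.P243.Soft.HH
import Vale.Agent.Lib.P243.Soft.Cover
import Vale.Agent.Lib.P243.Edge.Defs
import Vale.Agent.Lib.P243.Edge.Capture
import Vale.Agent.Lib.P243.Edge.Line
import Vale.Agent.Lib.P243.Edge.Mass

/-!
P243: every covering of a tetrahedron by cylinders parallel to its edges has directionwise relative
area at least `1/2`.  Weight `rho = 1 + 1_oct`: mass `(3/2) vol`, and every line parallel to an edge
`[b k, b j]` carries at most the weight of that edge.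
-/

namespace Vale.Agent.Lib.P243.Edge

open MeasureTheory Set Vale.Agent.Lib.P243 Vale.Agent.Lib.P243.Soft

theorem tet_eq (b : AffineBasis (Fin 4) ℝ Space) : tet b = convexHull ℝ (range b) :=
  (b.convexHull_eq_nonneg_coord).symm

theorem convex_tet (b : AffineBasis (Fin 4) ℝ Space) : Convex ℝ (tet b) := by
  rw [tet_eq]; exact convex_convexHull ℝ _

theorem isCompact_tet (b : AffineBasis (Fin 4) ℝ Space) : IsCompact (tet b) := by
  rw [tet_eq]; exact (finite_range b).isCompact_convexHull ℝ

theorem vertex_mem (b : AffineBasis (Fin 4) ℝ Space) (i : Fin 4) : b i ∈ tet b := by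
  rw [tet_eq]; exact subset_convexHull ℝ _ (mem_range_self i)

theorem interior_tet (b : AffineBasis (Fin 4) ℝ Space) : (interior (tet b)).Nonempty := by
  rw [tet_eq]; exact interior_convexHull_nonempty_iff_affineSpan_eq_top.2 b.tot

theorem feas_edge (b : AffineBasis (Fin 4) ℝ Space) (j k : Fin 4) (hjk : j ≠ k) {c : ℝ}
    (hc : 0 < c) (p : Space) :
    hh (tet b) (c • (b j - b k)) * lineInt (tet b) (rho b) p (c • (b j - b k))
      ≤ 3 * volume (tet b) := by
  rw [hh_smul (convex_tet b) (isCompact_tet b) _ hc.le]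
  calc ENNReal.ofReal c * hh (tet b) (b j - b k) * lineInt (tet b) (rho b) p (c • (b j - b k))
      ≤ ENNReal.ofReal c * (3 * volume (tet b)) * ENNReal.ofReal (1 / c) := by
        gcongr
        · exact hh_le (convex_tet b) (isCompact_tet b) (vertex_mem b k) (vertex_mem b j)
        · exact lineInt_le b j k hjk hc p
    _ = 3 * volume (tet b) := by
        rw [mul_right_comm, ← ENNReal.ofReal_mul hc.le, mul_one_div_cancel hc.ne',
          ENNReal.ofReal_one, one_mul]

theorem feas_par (b : AffineBasis (Fin 4) ℝ Space) (u : Space) (hu : u ≠ 0)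
    (hpar : ∃ j k : Fin 4, ∃ c : ℝ, u = c • (b j - b k)) (p : Space) :
    hh (tet b) u * lineInt (tet b) (rho b) p u ≤ 3 * volume (tet b) := by
  obtain ⟨j, k, c, rfl⟩ := hpar
  have hc : c ≠ 0 := by
    rintro rfl
    exact hu (zero_smul _ _)
  have hjk : j ≠ k := by
    rintro rfl
    exact hu (by simp)
  rcases lt_or_gt_of_ne hc with h | h
  · have e : c • (b j - b k) = (-c) • (b k - b j) := by
      rw [neg_smul, ← smul_neg, neg_sub]
    rw [e]
    exact feas_edge b k j hjk.symm (neg_pos.2 h) p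
  · exact feas_edge b j k hjk h p

theorem edge_parallel (b : AffineBasis (Fin 4) ℝ Space) (m : ℕ) (u : Fin m → Space)
    (hu : ∀ i, ‖u i‖ = 1) (hpar : ∀ i, ∃ j k : Fin 4, ∃ c : ℝ, u i = c • (b j - b k))
    (B : ∀ i, Set (Plane (u i))) (hcov : tet b ⊆ ⋃ i, cylinder (u i) (B i)) :
    (1 / 2 : ENNReal) ≤ ∑ i, area (u i) (B i) / area (u i) (shadow (tet b) (u i)) := by
  have hK := convex_tet b
  have hc := isCompact_tet b
  have hint := interior_tet b
  have hV0 : volume (tet b) ≠ 0 :=
    (lt_of_lt_of_le (isOpen_interior.measure_pos volume hint)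
      (measure_mono interior_subset)).ne'
  have hVt : volume (tet b) ≠ ⊤ := hc.measure_lt_top.ne
  have hu0 : ∀ i, u i ≠ 0 := by
    intro i h
    have := hu i
    rw [h, norm_zero] at this
    exact zero_ne_one this
  have hhalf : (1 / 2 : ENNReal) = ENNReal.ofReal ((1 + 1 / 2) / 3) := by
    rw [show ((1 : ℝ) + 1 / 2) / 3 = 1 / 2 by norm_num,
      ENNReal.ofReal_div_of_pos (by norm_num)]
    simp
  rw [hhalf]
  refine arith_cover hV0 hVt ?_
  have hsub : tet b ⊆ ⋃ i, tet b ∩ cylinder (u i) (B i) := by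
    intro x hx
    obtain ⟨i, hi⟩ := mem_iUnion.1 (hcov hx)
    exact mem_iUnion.2 ⟨i, hx, hi⟩
  have hone : ∀ i, (∫⁻ x in tet b ∩ cylinder (u i) (B i), rho b x) ≤
      3 * volume (tet b) * (area (u i) (B i) / area (u i) (shadow (tet b) (u i))) := by
    intro i
    have h := capture_dir hK hc (measurable_rho b) (u i) (hu0 i)
      (feas_par b (u i) (hu0 i) (hpar i)) (B i)
    have hp := (area_shadow_pos hint (u i)).ne'
    have ht := area_shadow_ne_top hc (u i)
    rw [← mul_div_assoc]
    exact (ENNReal.le_div_iff_mul_le (Or.inl hp) (Or.inl ht)).2 h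
  calc ENNReal.ofReal (1 + 1 / 2) * volume (tet b)
      ≤ ∫⁻ x in tet b, rho b x := mass_ge b
    _ ≤ ∫⁻ x in ⋃ i, tet b ∩ cylinder (u i) (B i), rho b x := lintegral_mono_set hsub
    _ ≤ ∑' i, ∫⁻ x in tet b ∩ cylinder (u i) (B i), rho b x := lintegral_iUnion_le _ _
    _ = ∑ i, ∫⁻ x in tet b ∩ cylinder (u i) (B i), rho b x := tsum_fintype _
    _ ≤ ∑ i, 3 * volume (tet b) * (area (u i) (B i) / area (u i) (shadow (tet b) (u i))) :=
        Finset.sum_le_sum fun i _ => hone i
    _ = 3 * volume (tet b) * ∑ i, area (u i) (B i) / area (u i) (shadow (tet b) (u i)) :=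
        (Finset.mul_sum _ _ _).symm

/-- The absolute form. -/
theorem edge_parallel_abs (b : AffineBasis (Fin 4) ℝ Space) (m : ℕ) (u : Fin m → Space)
    (hu : ∀ i, ‖u i‖ = 1) (hpar : ∀ i, ∃ j k : Fin 4, ∃ c : ℝ, u i = c • (b j - b k))
    (B : ∀ i, Set (Plane (u i))) (hcov : tet b ⊆ ⋃ i, cylinder (u i) (B i)) :
    1 / 2 * (⨅ (v : Space) (_ : ‖v‖ = 1), area v (shadow (tet b) v)) ≤ ∑ i, area (u i) (B i) := by
  have h := edge_parallel b m u hu hpar B hcov
  set A : ENNReal := ⨅ (v : Space) (_ : ‖v‖ = 1), area v (shadow (tet b) v) with hA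
  have hint := interior_tet b
  have hc := isCompact_tet b
  calc 1 / 2 * A ≤ (∑ i, area (u i) (B i) / area (u i) (shadow (tet b) (u i))) * A := by gcongr
    _ = ∑ i, area (u i) (B i) / area (u i) (shadow (tet b) (u i)) * A := Finset.sum_mul _ _ _
    _ ≤ ∑ i, area (u i) (B i) := by
        refine Finset.sum_le_sum fun i _ => ?_
        have hle : A ≤ area (u i) (shadow (tet b) (u i)) := iInf₂_le (u i) (hu i)
        have hp := (area_shadow_pos hint (u i)).ne'
        have ht := area_shadow_ne_top hc (u i)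
        calc area (u i) (B i) / area (u i) (shadow (tet b) (u i)) * A
            ≤ area (u i) (B i) / area (u i) (shadow (tet b) (u i)) *
                area (u i) (shadow (tet b) (u i)) := by gcongr
          _ = area (u i) (B i) := ENNReal.div_mul_cancel hp ht

end Vale.Agent.Lib.P243.Edge
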